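import Vale.Agent.P192.Tors

/-! An infinite finitely presented periodic group. -/

namespace Vale.Agent.Results.P192.Burnside

theorem result : ∃ (G : Type) (_ : Group G),
    Group.IsFinitelyPresented G ∧ Infinite G ∧ ∀ g : G, IsOfFinOrder g :=
  Vale.Agent.P192.burnside

end Vale.Agent.Results.P192.Burnside
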